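import Mathlib

/-!
Large square divisors of biquadratic quartics: the Pell argument.
If `y ^ 2` divides `F n = a n ^ 4 + b n ^ 2 + c`, then with `M = 4 a (F n / y ^ 2)` and
`W = 2 a n ^ 2 + b` one has `W ^ 2 - M y ^ 2 = D`, where `D = b ^ 2 - 4 a c`.
For fixed `M`, solutions in one residue class modulo `D` grow geometrically, so there are few.
-/

namespace Vale.Agent.Lib.P018

/-- Two solutions of `w ^ 2 - M y ^ 2 = D` in one residue class modulo `D`: their sizes `w + y √M`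
differ by a factor of at least two. -/
lemma ratio_ge_two {D M : ℤ} (hD : D ≠ 0) (hM : 1 ≤ M)
    {w₁ y₁ w₂ y₂ : ℤ} (h₁ : w₁ ^ 2 - M * y₁ ^ 2 = D) (h₂ : w₂ ^ 2 - M * y₂ ^ 2 = D)
    (hw : D ∣ w₁ - w₂) (hy : D ∣ y₁ - y₂)
    {s : ℝ} (hs : s ^ 2 = (M : ℝ)) (hs0 : 0 < s)
    (hα₂ : 0 < (w₂ : ℝ) + y₂ * s) (hlt : (w₂ : ℝ) + y₂ * s < (w₁ : ℝ) + y₁ * s) :
    2 * ((w₂ : ℝ) + y₂ * s) ≤ (w₁ : ℝ) + y₁ * s := by
  set α₁ : ℝ := (w₁ : ℝ) + y₁ * s with hα₁def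
  set α₂ : ℝ := (w₂ : ℝ) + y₂ * s with hα₂def
  have hα₁ : 0 < α₁ := lt_trans hα₂ hlt
  have h₁' : (w₁ : ℝ) ^ 2 - M * y₁ ^ 2 = D := by exact_mod_cast h₁
  have h₂' : (w₂ : ℝ) ^ 2 - M * y₂ ^ 2 = D := by exact_mod_cast h₂
  set V : ℤ := w₂ * y₁ - w₁ * y₂ with hV
  have hDV : D ∣ V := by
    have : V = w₂ * (y₁ - y₂) - (w₁ - w₂) * y₂ := by rw [hV]; ring
    rw [this]
    exact dvd_sub (Dvd.dvd.mul_left hy _) (Dvd.dvd.mul_right hw _)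
  -- the key identity
  have key : (D : ℝ) * (α₁ ^ 2 - α₂ ^ 2) = 2 * s * (V : ℝ) * (α₁ * α₂) := by
    have hVr : (V : ℝ) = (w₂ : ℝ) * y₁ - w₁ * y₂ := by rw [hV]; push_cast; ring
    rw [hVr, hα₁def, hα₂def]
    have e1 : (D : ℝ) * (((w₁ : ℝ) + y₁ * s) ^ 2 - ((w₂ : ℝ) + y₂ * s) ^ 2)
        = ((w₂ : ℝ) ^ 2 - M * y₂ ^ 2) * ((w₁ : ℝ) + y₁ * s) ^ 2
          - ((w₁ : ℝ) ^ 2 - M * y₁ ^ 2) * ((w₂ : ℝ) + y₂ * s) ^ 2 := by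
      rw [h₁', h₂']; ring
    rw [e1, ← hs]
    ring
  have hα12 : 0 < α₁ ^ 2 - α₂ ^ 2 := by nlinarith
  have hDr : (D : ℝ) ≠ 0 := by exact_mod_cast hD
  have hV0 : V ≠ 0 := by
    intro h0
    rw [h0] at key
    simp only [Int.cast_zero, mul_zero, zero_mul] at key
    rcases mul_eq_zero.mp key with h | h
    · exact hDr h
    · exact hα12.ne' h
  have hVabs : |(D : ℝ)| ≤ |(V : ℝ)| := by
    have := Int.le_of_dvd (abs_pos.mpr hV0) ((abs_dvd_abs _ _).mpr hDV)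
    exact_mod_cast this
  have hs1 : 1 ≤ s := by
    have hMr : (1 : ℝ) ≤ M := by exact_mod_cast hM
    nlinarith
  have habs := congrArg (fun x : ℝ => |x|) key
  simp only [abs_mul, abs_of_pos hα12, abs_of_pos hs0, abs_of_pos hα₁, abs_of_pos hα₂] at habs
  have hDpos : 0 < |(D : ℝ)| := abs_pos.mpr hDr
  have h2 : |(D : ℝ)| * (α₁ ^ 2 - α₂ ^ 2) ≥ |(D : ℝ)| * (2 * (α₁ * α₂)) := by
    rw [habs]
    have h3 : 0 < α₁ * α₂ := mul_pos hα₁ hα₂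
    have h4 : |(D : ℝ)| * 1 ≤ |(V : ℝ)| * s := by
      calc |(D : ℝ)| * 1 ≤ |(V : ℝ)| * 1 := by gcongr
        _ ≤ |(V : ℝ)| * s := by gcongr
    have : |(2 : ℝ)| = 2 := abs_of_pos (by norm_num)
    rw [this]
    nlinarith
  have h5 : α₁ ^ 2 - α₂ ^ 2 ≥ 2 * (α₁ * α₂) := le_of_mul_le_mul_left h2 hDpos
  by_contra hcon
  push_neg at hcon
  nlinarith

/-- Same size implies same first coordinate. -/
lemma eq_of_alpha_eq {D M : ℤ} {w₁ y₁ w₂ y₂ : ℤ} (h₁ : w₁ ^ 2 - M * y₁ ^ 2 = D)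
    (h₂ : w₂ ^ 2 - M * y₂ ^ 2 = D) {s : ℝ} (hs : s ^ 2 = (M : ℝ)) 
    (hpos : 0 < (w₂ : ℝ) + y₂ * s) (heq : (w₁ : ℝ) + y₁ * s = (w₂ : ℝ) + y₂ * s) : w₁ = w₂ := by
  have h₁' : (w₁ : ℝ) ^ 2 - M * y₁ ^ 2 = D := by exact_mod_cast h₁
  have h₂' : (w₂ : ℝ) ^ 2 - M * y₂ ^ 2 = D := by exact_mod_cast h₂
  set α : ℝ := (w₂ : ℝ) + y₂ * s with hα
  have b₁ : ((w₁ : ℝ) - y₁ * s) * α = D := by
    rw [← heq, ← h₁', ← hs]; ring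
  have b₂ : ((w₂ : ℝ) - y₂ * s) * α = D := by
    rw [hα, ← h₂', ← hs]; ring
  have hbeta : (w₁ : ℝ) - y₁ * s = (w₂ : ℝ) - y₂ * s := by
    have := b₁.trans b₂.symm
    exact mul_right_cancel₀ hpos.ne' this
  have : (w₁ : ℝ) = w₂ := by
    have e : (w₁ : ℝ) + y₁ * s = (w₂ : ℝ) + y₂ * s := heq
    linarith
  exact_mod_cast this

end Vale.Agent.Lib.P018
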