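import Mathlib
import Vale.Agent.Lib.P018.Pell

/-!
Counting `n ≤ X` such that `a n ^ 4 + b n ^ 2 + c` has a square divisor `y ^ 2` with `y ≥ Y`.
-/

namespace Vale.Agent.Lib.P018

open Finset

/-- Two natural solutions with the same residues and the same dyadic size agree. -/
lemma same_w {D M : ℤ} (hD : D ≠ 0) (hM : 1 ≤ M) {w y w' y' : ℕ}
    (h : (w : ℤ) ^ 2 - M * (y : ℤ) ^ 2 = D) (h' : (w' : ℤ) ^ 2 - M * (y' : ℤ) ^ 2 = D)
    (hy : 1 ≤ y) (hy' : 1 ≤ y')
    (hw : w % D.natAbs = w' % D.natAbs) (hyy : y % D.natAbs = y' % D.natAbs)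
    (hl : Nat.log 2 ⌊(w : ℝ) + y * √(M : ℝ)⌋₊ = Nat.log 2 ⌊(w' : ℝ) + y' * √(M : ℝ)⌋₊) :
    w = w' := by
  have hMr : (1 : ℝ) ≤ M := by exact_mod_cast hM
  set s : ℝ := √(M : ℝ) with hsdef
  have hs : s ^ 2 = (M : ℝ) := Real.sq_sqrt (by linarith)
  have hs1 : 1 ≤ s := by
    rw [hsdef]
    exact Real.one_le_sqrt.mpr hMr
  have hs0 : 0 < s := by linarith
  have hyr : (1 : ℝ) ≤ y := by exact_mod_cast hy
  have hyr' : (1 : ℝ) ≤ y' := by exact_mod_cast hy'
  have hwr : (0 : ℝ) ≤ w := Nat.cast_nonneg _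
  have hwr' : (0 : ℝ) ≤ w' := Nat.cast_nonneg _
  have hα : 1 ≤ (w : ℝ) + y * s := by nlinarith
  have hα' : 1 ≤ (w' : ℝ) + y' * s := by nlinarith
  have hdvdw : D ∣ (w : ℤ) - (w' : ℤ) := by
    have : ((D.natAbs : ℕ) : ℤ) ∣ (w : ℤ) - (w' : ℤ) := by
      have h1 : Nat.ModEq D.natAbs w w' := hw
      have := (Nat.modEq_iff_dvd.mp h1.symm)
      exact this
    exact Int.natAbs_dvd.mp this
  have hdvdy : D ∣ (y : ℤ) - (y' : ℤ) := by
    have : ((D.natAbs : ℕ) : ℤ) ∣ (y : ℤ) - (y' : ℤ) := by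
      have h1 : Nat.ModEq D.natAbs y y' := hyy
      have := (Nat.modEq_iff_dvd.mp h1.symm)
      exact this
    exact Int.natAbs_dvd.mp this
  -- a general contradiction for strict inequality
  have gen : ∀ {u v u' v' : ℕ}, (u : ℤ) ^ 2 - M * (v : ℤ) ^ 2 = D →
      (u' : ℤ) ^ 2 - M * (v' : ℤ) ^ 2 = D →
      D ∣ (u : ℤ) - (u' : ℤ) → D ∣ (v : ℤ) - (v' : ℤ) →
      1 ≤ (u' : ℝ) + v' * s → 
      Nat.log 2 ⌊(u : ℝ) + v * s⌋₊ = Nat.log 2 ⌊(u' : ℝ) + v' * s⌋₊ →
      ¬ ((u' : ℝ) + v' * s < (u : ℝ) + v * s) := by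
    intro u v u' v' h1 h2 d1 d2 hb hlog hlt
    have hr := ratio_ge_two (w₁ := (u : ℤ)) (y₁ := (v : ℤ)) (w₂ := (u' : ℤ)) (y₂ := (v' : ℤ))
      hD hM h1 h2 d1 d2 hs hs0
      (by push_cast; linarith) (by push_cast; exact hlt)
    push_cast at hr
    set m' := ⌊(u' : ℝ) + v' * s⌋₊ with hm'
    set m := ⌊(u : ℝ) + v * s⌋₊ with hm
    have hm'1 : 1 ≤ m' := Nat.le_floor (by simpa using hb)
    have h2l : 2 ^ Nat.log 2 m' ≤ m' := Nat.pow_log_le_self 2 (by omega)
    have h3l : m < 2 ^ (Nat.log 2 m + 1) := Nat.lt_pow_succ_log_self (by norm_num) m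
    rw [hlog] at h3l
    have h4 : ((2 ^ Nat.log 2 m' : ℕ) : ℝ) ≤ (u' : ℝ) + v' * s := by
      calc ((2 ^ Nat.log 2 m' : ℕ) : ℝ) ≤ (m' : ℝ) := by exact_mod_cast h2l
        _ ≤ (u' : ℝ) + v' * s := Nat.floor_le (by linarith)
    have h5 : (u : ℝ) + v * s < ((2 ^ (Nat.log 2 m' + 1) : ℕ) : ℝ) := by
      have h6 : (u : ℝ) + v * s < (m : ℝ) + 1 := Nat.lt_floor_add_one _
      have h7 : (m : ℝ) + 1 ≤ ((2 ^ (Nat.log 2 m' + 1) : ℕ) : ℝ) := by
        exact_mod_cast h3l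
      linarith
    have h8 : ((2 ^ (Nat.log 2 m' + 1) : ℕ) : ℝ) = 2 * ((2 ^ Nat.log 2 m' : ℕ) : ℝ) := by
      push_cast; ring
    rw [h8] at h5
    linarith
  have hno1 := gen h h' hdvdw hdvdy hα' hl
  have hno2 := gen h' h (by rw [← neg_sub]; exact (dvd_neg.mpr hdvdw))
    (by rw [← neg_sub]; exact (dvd_neg.mpr hdvdy)) hα hl.symm
  have heq : (w : ℝ) + y * s = (w' : ℝ) + y' * s := le_antisymm (not_lt.mp hno1) (not_lt.mp hno2)
  have := eq_of_alpha_eq (w₁ := (w : ℤ)) (y₁ := (y : ℤ)) (w₂ := (w' : ℤ)) (y₂ := (y' : ℤ))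
    h h' hs (by push_cast; linarith) (by push_cast; exact heq)
  exact_mod_cast this

open Classical in
/-- The combinatorial bound behind the main estimate. -/
lemma card_bound (a b c : ℤ) (ha : a ≠ 0) (hD : b ^ 2 - 4 * a * c ≠ 0) (X Y : ℕ)
    (hX : 1 ≤ X) (hY : 1 ≤ Y) :
    ((Finset.Icc 1 X).filter (fun n : ℕ => a * (n : ℤ) ^ 4 + b * (n : ℤ) ^ 2 + c ≠ 0 ∧
        ∃ y : ℕ, Y ≤ y ∧ (y : ℤ) ^ 2 ∣ a * (n : ℤ) ^ 4 + b * (n : ℤ) ^ 2 + c)).card
      ≤ ((4 * a.natAbs * (a.natAbs + b.natAbs + c.natAbs) * X ^ 4) / Y ^ 2)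
          * (b ^ 2 - 4 * a * c).natAbs * (b ^ 2 - 4 * a * c).natAbs
          * (Nat.log 2 ((4 * a.natAbs + 2 * b.natAbs + (b ^ 2 - 4 * a * c).natAbs) * X ^ 2) + 1) * 2
        + (2 * (b ^ 2 - 4 * a * c).natAbs + 1) := by
  set D : ℤ := b ^ 2 - 4 * a * c with hDdef
  set d : ℕ := D.natAbs with hd
  have hd1 : 1 ≤ d := Int.natAbs_pos.mpr hD
  set S := (Finset.Icc 1 X).filter (fun n : ℕ => a * (n : ℤ) ^ 4 + b * (n : ℤ) ^ 2 + c ≠ 0 ∧
        ∃ y : ℕ, Y ≤ y ∧ (y : ℤ) ^ 2 ∣ a * (n : ℤ) ^ 4 + b * (n : ℤ) ^ 2 + c) with hS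
  have hex : ∀ n ∈ S, ∃ (y : ℕ) (k : ℤ), Y ≤ y ∧ a * (n : ℤ) ^ 4 + b * (n : ℤ) ^ 2 + c = (y : ℤ) ^ 2 * k := by
    intro n hn
    obtain ⟨-, -, y, hy, k, hk⟩ := (Finset.mem_filter.mp hn)
    exact ⟨y, k, hy, hk⟩
  choose! y k hyk using hex
  have hne : ∀ n ∈ S, a * (n : ℤ) ^ 4 + b * (n : ℤ) ^ 2 + c ≠ 0 := fun n hn =>
    (Finset.mem_filter.mp hn).2.1
  have hXn : ∀ n ∈ S, n ≤ X := fun n hn => (Finset.mem_Icc.mp (Finset.mem_filter.mp hn).1).2
  have hn1 : ∀ n ∈ S, 1 ≤ n := fun n hn => (Finset.mem_Icc.mp (Finset.mem_filter.mp hn).1).1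
  set M : ℕ → ℤ := fun n => 4 * a * k n with hMdef
  set W : ℕ → ℤ := fun n => 2 * a * (n : ℤ) ^ 2 + b with hWdef
  have hPell : ∀ n ∈ S, (W n) ^ 2 - M n * ((y n : ℕ) : ℤ) ^ 2 = D := by
    intro n hn
    have h := (hyk n hn).2
    have : M n * ((y n : ℕ) : ℤ) ^ 2 = 4 * a * (a * (n : ℤ) ^ 4 + b * (n : ℤ) ^ 2 + c) := by
      rw [h]; simp only [hMdef]; ring
    rw [this]
    simp only [hWdef, hDdef]
    ring
  have hk0 : ∀ n ∈ S, k n ≠ 0 := by
    intro n hn h0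
    apply hne n hn
    rw [(hyk n hn).2, h0, mul_zero]
  have hy1 : ∀ n ∈ S, 1 ≤ y n := fun n hn => le_trans hY (hyk n hn).1
  have hWinj : ∀ n m : ℕ, W n = W m → n = m := by
    intro n m h
    simp only [hWdef] at h
    have h1 : 2 * a * ((n : ℤ) ^ 2 - (m : ℤ) ^ 2) = 0 := by linarith
    have h2 : (n : ℤ) ^ 2 - (m : ℤ) ^ 2 = 0 := by
      rcases mul_eq_zero.mp h1 with h3 | h3
      · exfalso
        rcases mul_eq_zero.mp h3 with h4 | h4
        · norm_num at h4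
        · exact ha h4
      · exact h3
    have h3 : (n : ℤ) ^ 2 = (m : ℤ) ^ 2 := by linarith
    have h4 : n ^ 2 = m ^ 2 := by exact_mod_cast h3
    exact Nat.pow_left_injective (n := 2) (by norm_num) h4
  -- split
  have hsplit : S.card = (S.filter (fun n => 1 ≤ M n)).card + (S.filter (fun n => ¬ 1 ≤ M n)).card :=
    (Finset.card_filter_add_card_filter_not _).symm
  rw [hsplit]
  apply add_le_add
  · -- good part
    set G := S.filter (fun n => 1 ≤ M n) with hG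
    set M₀ : ℕ := (4 * a.natAbs * (a.natAbs + b.natAbs + c.natAbs) * X ^ 4) / Y ^ 2 with hM₀
    set A₁ : ℕ := 4 * a.natAbs + 2 * b.natAbs + d with hA₁
    set L : ℕ := Nat.log 2 (A₁ * X ^ 2) with hL
    set φ : ℕ → ℕ × ℕ × ℕ × ℕ × Bool := fun n =>
      ((M n).toNat, (W n).natAbs % d, (y n) % d,
        Nat.log 2 ⌊((W n).natAbs : ℝ) + (y n : ℝ) * √((M n : ℤ) : ℝ)⌋₊, decide (0 ≤ W n)) with hφ
    have hmaps : ∀ n ∈ G, φ n ∈ (Finset.Icc 1 M₀) ×ˢ ((Finset.range d) ×ˢ ((Finset.range d) ×ˢ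
        ((Finset.range (L + 1)) ×ˢ (Finset.univ : Finset Bool)))) := by
      intro n hn
      have hnS := (Finset.mem_filter.mp hn).1
      have hMn : 1 ≤ M n := (Finset.mem_filter.mp hn).2
      simp only [Finset.mem_product, Finset.mem_Icc, Finset.mem_range, Finset.mem_univ, and_true, hφ]
      have hPn := hPell n hnS
      have hyn := hy1 n hnS
      refine ⟨⟨?_, ?_⟩, Nat.mod_lt _ hd1, Nat.mod_lt _ hd1, ?_⟩
      · omega
      · -- bound on M
        apply (Nat.le_div_iff_mul_le (by positivity)).mpr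
        have hF := (hyk n hnS)
        have hnX := hXn n hnS
        have hMabs : M n = 4 * a * k n := rfl
        have hnat : ((M n).toNat : ℤ) = M n := Int.toNat_of_nonneg (by omega)
        have hFabs : ((a * (n : ℤ) ^ 4 + b * (n : ℤ) ^ 2 + c).natAbs : ℕ)
            ≤ (a.natAbs + b.natAbs + c.natAbs) * X ^ 4 := by
          have h1 : n ^ 4 ≤ X ^ 4 := Nat.pow_le_pow_left hnX 4
          have h2 : n ^ 2 ≤ X ^ 4 := by
            calc n ^ 2 ≤ X ^ 2 := Nat.pow_le_pow_left hnX 2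
              _ ≤ X ^ 4 := Nat.pow_le_pow_right hX (by norm_num)
          have h3 : 1 ≤ X ^ 4 := Nat.one_le_pow _ _ hX
          have e1 : (a * (n : ℤ) ^ 4).natAbs = a.natAbs * n ^ 4 := by
            rw [Int.natAbs_mul, Int.natAbs_pow, Int.natAbs_natCast]
          have e2 : (b * (n : ℤ) ^ 2).natAbs = b.natAbs * n ^ 2 := by
            rw [Int.natAbs_mul, Int.natAbs_pow, Int.natAbs_natCast]
          calc (a * (n : ℤ) ^ 4 + b * (n : ℤ) ^ 2 + c).natAbs
              ≤ (a * (n : ℤ) ^ 4 + b * (n : ℤ) ^ 2).natAbs + c.natAbs := Int.natAbs_add_le _ _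
            _ ≤ (a * (n : ℤ) ^ 4).natAbs + (b * (n : ℤ) ^ 2).natAbs + c.natAbs := by
                gcongr; exact Int.natAbs_add_le _ _
            _ = a.natAbs * n ^ 4 + b.natAbs * n ^ 2 + c.natAbs := by rw [e1, e2]
            _ ≤ a.natAbs * X ^ 4 + b.natAbs * X ^ 4 + c.natAbs * X ^ 4 := by
                have h5 : c.natAbs ≤ c.natAbs * X ^ 4 := Nat.le_mul_of_pos_right _ h3
                gcongr
            _ = (a.natAbs + b.natAbs + c.natAbs) * X ^ 4 := by ring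
        have hk : (M n).toNat = 4 * a.natAbs * (k n).natAbs := by
          have : (M n).toNat = (M n).natAbs := by
            have := hnat
            omega
          rw [this, hMabs, Int.natAbs_mul, Int.natAbs_mul]
          rfl
        rw [hk]
        have hFn : (a * (n : ℤ) ^ 4 + b * (n : ℤ) ^ 2 + c).natAbs = (y n) ^ 2 * (k n).natAbs := by
          rw [hF.2, Int.natAbs_mul, Int.natAbs_pow, Int.natAbs_natCast]
        have hYy : Y ^ 2 ≤ (y n) ^ 2 := Nat.pow_le_pow_left hF.1 2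
        calc 4 * a.natAbs * (k n).natAbs * Y ^ 2
            ≤ 4 * a.natAbs * (k n).natAbs * (y n) ^ 2 := by gcongr
          _ = 4 * a.natAbs * ((y n) ^ 2 * (k n).natAbs) := by ring
          _ ≤ 4 * a.natAbs * ((a.natAbs + b.natAbs + c.natAbs) * X ^ 4) := by
              rw [← hFn]; gcongr
          _ = 4 * a.natAbs * (a.natAbs + b.natAbs + c.natAbs) * X ^ 4 := by ring
      · -- bound on the logarithm
        have hMr : (1 : ℝ) ≤ ((M n : ℤ) : ℝ) := by exact_mod_cast hMn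
        set s : ℝ := √((M n : ℤ) : ℝ) with hs
        have hs2 : s ^ 2 = ((M n : ℤ) : ℝ) := Real.sq_sqrt (by linarith)
        have hs0 : 0 ≤ s := Real.sqrt_nonneg _
        set w : ℕ := (W n).natAbs with hw
        have hwsq : ((w : ℤ)) ^ 2 = (W n) ^ 2 := by
          rw [hw]; exact Int.natAbs_sq _
        have hPr : (w : ℝ) ^ 2 - ((M n : ℤ) : ℝ) * (y n : ℝ) ^ 2 = (D : ℝ) := by
          have : ((w : ℤ)) ^ 2 - M n * ((y n : ℕ) : ℤ) ^ 2 = D := by rw [hwsq]; exact hPn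
          exact_mod_cast this
        have hDabs : -(d : ℝ) ≤ (D : ℝ) := by
          have : -(d : ℤ) ≤ D := by
            rw [hd]; omega
          exact_mod_cast this
        have hys : (y n : ℝ) * s ≤ (w : ℝ) + d := by
          have h1 : ((y n : ℝ) * s) ^ 2 ≤ ((w : ℝ) + d) ^ 2 := by
            have : ((y n : ℝ) * s) ^ 2 = ((M n : ℤ) : ℝ) * (y n : ℝ) ^ 2 := by
              rw [mul_pow, hs2]; ring
            rw [this]
            have hd0 : (1 : ℝ) ≤ d := by exact_mod_cast hd1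
            have hw0 : (0 : ℝ) ≤ w := Nat.cast_nonneg _
            nlinarith
          have hw0 : (0 : ℝ) ≤ (w : ℝ) + d := by positivity
          exact abs_le_of_sq_le_sq' h1 hw0 |>.2
        have hwb : w ≤ (2 * a.natAbs + b.natAbs) * X ^ 2 := by
          have h1 : n ^ 2 ≤ X ^ 2 := Nat.pow_le_pow_left (hXn n hnS) 2
          have h3 : 1 ≤ X ^ 2 := Nat.one_le_pow _ _ hX
          have e1 : (2 * a * (n : ℤ) ^ 2).natAbs = 2 * a.natAbs * n ^ 2 := by
            rw [Int.natAbs_mul, Int.natAbs_mul, Int.natAbs_pow, Int.natAbs_natCast]; rfl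
          calc w = (2 * a * (n : ℤ) ^ 2 + b).natAbs := rfl
            _ ≤ (2 * a * (n : ℤ) ^ 2).natAbs + b.natAbs := Int.natAbs_add_le _ _
            _ = 2 * a.natAbs * n ^ 2 + b.natAbs := by rw [e1]
            _ ≤ 2 * a.natAbs * X ^ 2 + b.natAbs * X ^ 2 := by
                have h5 : b.natAbs ≤ b.natAbs * X ^ 2 := Nat.le_mul_of_pos_right _ h3
                gcongr
            _ = (2 * a.natAbs + b.natAbs) * X ^ 2 := by ring
        have hαle : (w : ℝ) + (y n : ℝ) * s ≤ ((A₁ * X ^ 2 : ℕ) : ℝ) := by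
          have h1 : (w : ℝ) ≤ (((2 * a.natAbs + b.natAbs) * X ^ 2 : ℕ) : ℝ) := by exact_mod_cast hwb
          have h2 : ((d : ℕ) : ℝ) ≤ ((d * X ^ 2 : ℕ) : ℝ) := by
            have h3 : 1 ≤ X ^ 2 := Nat.one_le_pow _ _ hX
            have : d ≤ d * X ^ 2 := Nat.le_mul_of_pos_right _ (by omega)
            exact_mod_cast this
          have h3 : ((A₁ * X ^ 2 : ℕ) : ℝ) = 2 * (((2 * a.natAbs + b.natAbs) * X ^ 2 : ℕ) : ℝ) + ((d * X ^ 2 : ℕ) : ℝ) := by
            rw [hA₁]; push_cast; ring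
          rw [h3]
          linarith
        have hfl : ⌊(w : ℝ) + (y n : ℝ) * s⌋₊ ≤ A₁ * X ^ 2 := by
          apply Nat.floor_le_of_le
          exact hαle
        have := Nat.log_mono_right (b := 2) hfl
        rw [← hL] at this
        omega
    have hinj : Set.InjOn φ G := by
      intro n hn m hm hnm
      have hn' : n ∈ G := hn
      have hm' : m ∈ G := hm
      have hnS := (Finset.mem_filter.mp hn').1
      have hmS := (Finset.mem_filter.mp hm').1
      have hMn : 1 ≤ M n := (Finset.mem_filter.mp hn').2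
      have hMm : 1 ≤ M m := (Finset.mem_filter.mp hm').2
      simp only [hφ, Prod.mk.injEq] at hnm
      obtain ⟨h1, h2, h3, h4, h5⟩ := hnm
      have hMeq : M n = M m := by
        have e1 : ((M n).toNat : ℤ) = M n := Int.toNat_of_nonneg (by omega)
        have e2 : ((M m).toNat : ℤ) = M m := Int.toNat_of_nonneg (by omega)
        rw [← e1, ← e2, h1]
      have hwsq : ∀ t : ℕ, (((W t).natAbs : ℕ) : ℤ) ^ 2 = (W t) ^ 2 := fun t => Int.natAbs_sq _
      have hP1 : (((W n).natAbs : ℕ) : ℤ) ^ 2 - M n * ((y n : ℕ) : ℤ) ^ 2 = D := by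
        rw [hwsq]; exact hPell n hnS
      have hP2 : (((W m).natAbs : ℕ) : ℤ) ^ 2 - M n * ((y m : ℕ) : ℤ) ^ 2 = D := by
        rw [hwsq, hMeq]; exact hPell m hmS
      have hl : Nat.log 2 ⌊(((W n).natAbs : ℕ) : ℝ) + (y n : ℝ) * √((M n : ℤ) : ℝ)⌋₊
          = Nat.log 2 ⌊(((W m).natAbs : ℕ) : ℝ) + (y m : ℝ) * √((M n : ℤ) : ℝ)⌋₊ := by
        rw [h4, hMeq]
      have hww := same_w hD hMn hP1 hP2 (hy1 n hnS) (hy1 m hmS) h2 h3 hl
      have hsign : (0 ≤ W n) ↔ (0 ≤ W m) := by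
        simpa using h5
      apply hWinj
      rcases le_total 0 (W n) with h0 | h0
      · have h0' := hsign.mp h0
        have e1 := Int.natAbs_of_nonneg h0
        have e2 := Int.natAbs_of_nonneg h0'
        rw [← e1, ← e2, hww]
      · by_cases h00 : W n = 0
        · have : (W m).natAbs = 0 := by rw [← hww, h00]; rfl
          have : W m = 0 := Int.natAbs_eq_zero.mp this
          rw [h00, this]
        · have hneg : ¬ (0 ≤ W n) := by omega
          have hneg' : ¬ (0 ≤ W m) := fun h => hneg (hsign.mpr h)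
          omega
    have hcard := Finset.card_le_card_of_injOn φ hmaps hinj
    simp only [Finset.card_product, Nat.card_Icc, Finset.card_range, Finset.card_univ,
      Fintype.card_bool] at hcard
    calc G.card ≤ (M₀ + 1 - 1) * (d * (d * ((L + 1) * 2))) := hcard
      _ = M₀ * d * d * (L + 1) * 2 := by
          simp only [Nat.add_sub_cancel]; ring
  · -- bad part
    set B := S.filter (fun n => ¬ 1 ≤ M n) with hB
    have hmaps : ∀ n ∈ B, W n ∈ Finset.Icc (-(d : ℤ)) (d : ℤ) := by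
      intro n hn
      have hnS := (Finset.mem_filter.mp hn).1
      have hMn : ¬ 1 ≤ M n := (Finset.mem_filter.mp hn).2
      have hM0 : M n ≠ 0 := by
        simp only [hMdef]
        exact mul_ne_zero (mul_ne_zero (by norm_num) ha) (hk0 n hnS)
      have hMneg : M n ≤ -1 := by omega
      have hPn := hPell n hnS
      have hsq : (W n) ^ 2 ≤ D := by
        have h1 : 0 ≤ ((y n : ℕ) : ℤ) ^ 2 := by positivity
        nlinarith
      have hDd : D ≤ d := by
        rw [hd]; omega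
      have hWd : (W n) ^ 2 ≤ (d : ℤ) ^ 2 := by
        have h1 : (1 : ℤ) ≤ d := by exact_mod_cast hd1
        nlinarith
      have := abs_le_of_sq_le_sq' hWd (by positivity)
      exact Finset.mem_Icc.mpr this
    have hinj : Set.InjOn W B := fun n _ m _ h => hWinj n m h
    have hcard := Finset.card_le_card_of_injOn W hmaps hinj
    simp only [Int.card_Icc] at hcard
    have : ((d : ℤ) + 1 - (-(d : ℤ))).toNat = 2 * d + 1 := by omega
    rw [this] at hcard
    exact hcard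

end Vale.Agent.Lib.P018
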