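import Mathlib
import Vale.Agent.Lib.P018.Count

/-!
The real form of the counting bound.
-/

namespace Vale.Agent.Lib.P018

open Classical in
/-- Real form of `card_bound`. -/
lemma real_bound (a b c : ℤ) (ha : a ≠ 0) (hD : b ^ 2 - 4 * a * c ≠ 0) :
    ∃ C : ℝ, ∀ X Y : ℕ, 2 ≤ X → 1 ≤ Y →
      (((Finset.Icc 1 X).filter (fun n : ℕ => a * (n : ℤ) ^ 4 + b * (n : ℤ) ^ 2 + c ≠ 0 ∧
        ∃ y : ℕ, Y ≤ y ∧ (y : ℤ) ^ 2 ∣ a * (n : ℤ) ^ 4 + b * (n : ℤ) ^ 2 + c)).card : ℝ)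
      ≤ C * ((X : ℝ) ^ 4 / (Y : ℝ) ^ 2 + 1) * Real.log X := by
  set d : ℕ := (b ^ 2 - 4 * a * c).natAbs with hd
  have hd1 : 1 ≤ d := Int.natAbs_pos.mpr hD
  set A : ℕ := a.natAbs + b.natAbs + c.natAbs with hA
  set A₁ : ℕ := 4 * a.natAbs + 2 * b.natAbs + d with hA₁
  have hA₁1 : 1 ≤ A₁ := by omega
  have hl2 : 0 < Real.log 2 := Real.log_pos (by norm_num)
  have hlA : 0 ≤ Real.log A₁ := Real.log_nonneg (by exact_mod_cast hA₁1)
  set K : ℝ := (Real.log A₁ / Real.log 2 + 3) / Real.log 2 with hK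
  have hK0 : 0 ≤ K := by positivity
  refine ⟨8 * (a.natAbs : ℝ) * A * d ^ 2 * K + (2 * d + 1) / Real.log 2, ?_⟩
  intro X Y hX hY
  have h := card_bound a b c ha hD X Y (by omega) hY
  rw [← hd, ← hA, ← hA₁] at h
  have hXr : (2 : ℝ) ≤ X := by exact_mod_cast hX
  have hYr : (1 : ℝ) ≤ Y := by exact_mod_cast hY
  have hlogX : Real.log 2 ≤ Real.log X := Real.log_le_log (by norm_num) hXr
  have hlogX0 : 0 < Real.log X := by linarith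
  set L : ℕ := Nat.log 2 (A₁ * X ^ 2) with hL
  have hLb : (L : ℝ) + 1 ≤ K * Real.log X := by
    have h2 : 2 ^ L ≤ A₁ * X ^ 2 := Nat.pow_log_le_self 2 (by positivity)
    have h3 : (2 : ℝ) ^ L ≤ (A₁ : ℝ) * (X : ℝ) ^ 2 := by exact_mod_cast h2
    have h4 : (L : ℝ) * Real.log 2 ≤ Real.log A₁ + 2 * Real.log X := by
      have h5 := Real.log_le_log (by positivity) h3
      rw [Real.log_pow, Real.log_mul (by positivity) (by positivity), Real.log_pow] at h5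
      push_cast at h5
      linarith
    have h5 : Real.log A₁ ≤ Real.log A₁ / Real.log 2 * Real.log X := by
      rw [div_mul_eq_mul_div, le_div_iff₀ hl2]
      exact mul_le_mul_of_nonneg_left hlogX hlA
    rw [hK, div_mul_eq_mul_div, le_div_iff₀ hl2]
    have h6 : (L + 1 : ℝ) * Real.log 2 ≤ Real.log A₁ + 2 * Real.log X + Real.log X := by
      nlinarith
    nlinarith
  set M₀ : ℕ := 4 * a.natAbs * A * X ^ 4 / Y ^ 2 with hM₀
  have hM₀r : (M₀ : ℝ) ≤ 4 * (a.natAbs : ℝ) * A * ((X : ℝ) ^ 4 / (Y : ℝ) ^ 2) := by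
    have h1 : (M₀ : ℝ) ≤ ((4 * a.natAbs * A * X ^ 4 : ℕ) : ℝ) / ((Y ^ 2 : ℕ) : ℝ) :=
      Nat.cast_div_le
    refine h1.trans (le_of_eq ?_)
    push_cast
    ring
  have hcast : (((Finset.Icc 1 X).filter (fun n : ℕ => a * (n : ℤ) ^ 4 + b * (n : ℤ) ^ 2 + c ≠ 0 ∧
        ∃ y : ℕ, Y ≤ y ∧ (y : ℤ) ^ 2 ∣ a * (n : ℤ) ^ 4 + b * (n : ℤ) ^ 2 + c)).card : ℝ)
      ≤ (M₀ : ℝ) * d * d * ((L : ℝ) + 1) * 2 + (2 * d + 1) := by
    exact_mod_cast h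
  refine hcast.trans ?_
  have hQ : 0 ≤ (X : ℝ) ^ 4 / (Y : ℝ) ^ 2 := by positivity
  set Q : ℝ := (X : ℝ) ^ 4 / (Y : ℝ) ^ 2 with hQdef
  have hd0 : (0 : ℝ) ≤ d := Nat.cast_nonneg _
  have hA0 : (0 : ℝ) ≤ 4 * (a.natAbs : ℝ) * A := by positivity
  have hM0 : (0 : ℝ) ≤ (M₀ : ℝ) := Nat.cast_nonneg _
  have t1 : (M₀ : ℝ) * d * d * ((L : ℝ) + 1) * 2
      ≤ (4 * (a.natAbs : ℝ) * A * Q) * d * d * (K * Real.log X) * 2 := by
    have hL0 : (0 : ℝ) ≤ (L : ℝ) + 1 := by positivity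
    gcongr
  have t2 : (2 * (d : ℝ) + 1) ≤ (2 * d + 1) / Real.log 2 * Real.log X := by
    rw [div_mul_eq_mul_div, le_div_iff₀ hl2]
    exact mul_le_mul_of_nonneg_left hlogX (by positivity)
  have t3 : 0 ≤ (8 * (a.natAbs : ℝ) * A * d ^ 2 * K) * Real.log X := by positivity
  have t4 : 0 ≤ ((2 * d + 1) / Real.log 2) * Q * Real.log X := by positivity
  nlinarith

end Vale.Agent.Lib.P018
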